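import Vale.Agent.P143.Main

open SimpleGraph

namespace Vale.Agent.Results.P143.BridgeClosure

open Vale.Agent.P143

/-- Let `Γ` be generated by the finite set `S₁ ∪ S₂` and suppose that every edge of the Cayley
graph of `(Γ, S₁ ∪ S₂)` which is not an edge of the Cayley graph of `(Γ, S₁)` is a bridge
(for instance `Γ = Γ₁ * F` with `F` free on `S₂`).  If the free uniform spanning forest of the
Cayley graph of the subgroup generated by `S₁` is a factor of IID, then so is the free uniform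
spanning forest of the Cayley graph of `(Γ, S₁ ∪ S₂)`. -/
theorem result {Γ : Type*} [Group Γ] (S₁ S₂ : Set Γ) (_hfin : (S₁ ∪ S₂).Finite)
    (_hgen : Subgroup.closure (S₁ ∪ S₂) = ⊤)
    (hb : ∀ e ∈ (mulCayley (S₁ ∪ S₂)).edgeSet, e ∉ (mulCayley S₁).edgeSet →
      (mulCayley (S₁ ∪ S₂)).IsBridge e)
    (h₁ : FUSFIsFIID (Subgroup.closure S₁) (Subtype.val ⁻¹' S₁)) :
    FUSFIsFIID Γ (S₁ ∪ S₂) :=
  fusfIsFIID_of_bridges S₁ S₂ hb h₁

end Vale.Agent.Results.P143.BridgeClosure
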